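import Vale.Agent.P207.N4.Dim
import Vale.Agent.P207.N7.H547.AffLemA
import Vale.Agent.P207.N4.H751.ZI3

/-!
# P207, line N7, row AFFLEM, part A3: the cocycle of the tensor in the affine charts

Over `F : Aff L` and `T : Tens L`:
* `F.toIn : H751.AffIn L`, with `F.toIn.Nh T x q = F.Na T x q` on `ball 0 2`;
* `F.lp x y q = F.ch y (F.pt x q)` : the change of the frame in the affine coordinates, for
  `em x = em y` it is `F.lin x y (q - F.ch x (L.ep y))`;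
* `F.Na_cocycle` : `Na y (lp x y q) = lin x y ∘ Na x q ∘ (lin x y)ᵀ + Rc x y q`;
* `F.Rc_smooth`, `F.Rc_bound` : smoothness, and uniform bounds where both points are in the closed
  ball of radius `2`;
* `F.Na_flow` : the same for the flow.
-/

set_option linter.unusedSectionVars false

open Set Filter Topology Metric
open scoped ContDiff

noncomputable section

namespace Vale.Agent.P207.N4.Y

open Vale.Agent.P207.N3 Vale.Agent.P207.N3.Ten Vale.Agent.P207.N4.Ten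

variable [Dim]

variable {Γ X B : Type} [Group Γ] [MetricSpace X] [ProperSpace X] [MulAction Γ X]
  [IsIsometricSMul Γ X] [TopologicalSpace B] [CompactSpace B] [T2Space B] [MulAction Γ B]
  [ContinuousConstSMul Γ B]

namespace Aff

variable {L : Leaf Γ X B} (F : Aff L)

/-! ### the change of the frame -/

/-- the change of the frame in the affine coordinates -/
def lp (x y : X) (q : E2) : E2 := F.ch y (F.pt x q)

theorem lp_eq {x y : X} (h : L.em x = L.em y) (q : E2) :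
    F.lp x y q = F.lin x y (q - F.ch x (L.ep y)) := by
  rw [lp, ← F.leaf x y h q, F.ch_pt]

theorem pt_lp {x y : X} (h : L.em x = L.em y) (q : E2) : F.pt y (F.lp x y q) = F.pt x q := by
  rw [F.lp_eq h, F.leaf x y h]

theorem lp_lp {x y : X} (h : L.em x = L.em y) (q : E2) : F.lp y x (F.lp x y q) = q := by
  rw [lp, F.pt_lp h, F.ch_pt]

theorem lp_smul (g : Γ) {x y : X} (h : L.em x = L.em y) (q : E2) :
    F.lp (g • x) (g • y) q = F.lp x y q := by
  rw [lp, lp, F.pt_smul, F.ch_smul]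
  rw [← h]
  exact F.pt_ne x q

theorem lp_sub {x y : X} (h : L.em x = L.em y) (q q' : E2) :
    F.lp x y q - F.lp x y q' = F.lin x y (q - q') := by
  rw [F.lp_eq h, F.lp_eq h, ← map_sub]
  congr 1
  abel

theorem lin_smul (g : Γ) {x y : X} (h : L.em x = L.em y) : F.lin (g • x) (g • y) = F.lin x y := by
  have h' : L.em (g • x) = L.em (g • y) := by rw [L.em_smul, L.em_smul, h]
  refine ContinuousLinearEquiv.ext (funext fun v => ?_)
  have h1 := F.lp_sub h v 0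
  have h2 := F.lp_sub h' v 0
  rw [sub_zero] at h1 h2
  rw [← h1, ← h2, F.lp_smul g h, F.lp_smul g h]

theorem lin_symm {x y : X} (h : L.em x = L.em y) : F.lin y x = (F.lin x y).symm := by
  refine ContinuousLinearEquiv.ext (funext fun v => ?_)
  rw [ContinuousLinearEquiv.eq_symm_apply]
  have h1 := F.lp_sub h.symm v 0
  have h2 := F.lp_sub h (F.lp y x v) (F.lp y x 0)
  rw [F.lp_lp h.symm, F.lp_lp h.symm, h1, sub_zero] at h2
  exact h2.symm

theorem hasFDerivAt_lp {x y : X} (h : L.em x = L.em y) (q : E2) :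
    HasFDerivAt (F.lp x y) (F.lin x y : E2 →L[ℝ] E2) q := by
  have h1 : F.lp x y = fun q => F.lin x y (q - F.ch x (L.ep y)) := funext fun q => F.lp_eq h q
  rw [h1]
  have h2 : HasFDerivAt (fun q : E2 => q - F.ch x (L.ep y)) (ContinuousLinearMap.id ℝ E2) q :=
    (hasFDerivAt_id q).sub_const _
  exact (F.lin x y : E2 →L[ℝ] E2).hasFDerivAt.comp q h2

theorem contDiff_lp {x y : X} (h : L.em x = L.em y) : ContDiff ℝ ∞ (F.lp x y) := by
  have h1 : F.lp x y = fun q => F.lin x y (q - F.ch x (L.ep y)) := funext fun q => F.lp_eq h q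
  rw [h1]
  exact (F.lin x y : E2 →L[ℝ] E2).contDiff.comp (contDiff_id.sub contDiff_const)

/-- the flow -/
theorem lp_flow (t : ℝ) (x : X) (q : E2) : F.lp x (L.φ t x) q = F.P t x q := by
  rw [lp, ← F.flow t x q, F.ch_pt]

theorem lin_flow (t : ℝ) (x : X) : F.lin x (L.φ t x) = F.P t x := by
  refine ContinuousLinearEquiv.ext (funext fun v => ?_)
  have h1 := F.lp_sub (L.em_φ t x).symm v 0
  rw [F.lp_flow, F.lp_flow, map_zero, sub_zero, sub_zero] at h1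
  exact h1.symm

/-! ### the interface of 751 -/

/-- the affine charts, in the form `H751.AffIn` -/
def toIn : H751.AffIn L where
  pt := F.pt
  ac := F.ch
  ac_pt := F.ch_pt
  pt_ac := F.pt_ch
  pt_ne := F.pt_ne
  pt_zero := F.pt_zero
  pt_smul := F.pt_smul
  pt_cont := F.pt_cont
  ac_cont := F.ch_cont
  aff x y h := ⟨F.lin x y, fun p => by
    have h1 := F.lp_sub h p 0
    rw [sub_zero] at h1
    rw [← h1]
    unfold lp
    abel⟩
  chi := F.dsc
  chi_mem x p hp := F.dsc_mem (F.closedBall_dT x (ball_subset_closedBall hp))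
  e_chi x p hp := F.e_dsc (F.closedBall_dT x (ball_subset_closedBall hp))
  chi_jc := F.dsc_jc_ball.mono (isOpen_univ.prod isOpen_ball) fun _ hp => ⟨hp.1, F.ball_rad hp.2⟩
  chi_inv x p hp := F.der_dsc_inv (F.closedBall_dT x (ball_subset_closedBall hp))

theorem toIn_Nh (T : Tens L) (x : X) {q : E2} (hq : q ∈ ball (0 : E2) 2) :
    F.toIn.Nh T x q = F.Na T x q := by
  have h : (fderiv ℝ (F.dsc x) q).inverse = fderiv ℝ (F.cu x) (F.dsc x q) :=
    F.der_dsc_inverse (F.closedBall_dT x (ball_subset_closedBall hq))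
  change (fderiv ℝ (F.dsc x) q).inverse ∘L T.N x (F.dsc x q) ∘L
    ContinuousLinearMap.adjoint (fderiv ℝ (F.dsc x) q).inverse = _
  rw [h]
  rfl

theorem toIn_al (z : Pr L) (q : E2) : F.toIn.al z q = F.lp z.1.2 z.1.1 q := rfl

theorem toIn_lin (z : Pr L) : F.toIn.lin z = F.lin z.1.2 z.1.1 := by
  refine ContinuousLinearEquiv.ext (funext fun v => ?_)
  rw [F.toIn.lin_sub, F.toIn_al, F.toIn_al, F.lp_sub z.2.symm, sub_zero]

/-! ### the cocycle -/

/-- the domain: both points are in the discs -/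
def dC : Set (Pr L × E2) :=
  {p | (p.1.1.1, p.2) ∈ F.dT ∧ (p.1.1.2, F.lp p.1.1.1 p.1.1.2 p.2) ∈ F.dT}

theorem lp_jc : JC (fun (z : Pr L) (q : E2) => F.lp z.1.1 z.1.2 q) univ :=
  (F.toIn.al_jc.pullback H751.AffIn.sw_cont).mono isOpen_univ fun _ _ => mem_univ _

theorem lp_cont : Continuous fun p : Pr L × E2 => F.lp p.1.1.1 p.1.1.2 p.2 :=
  continuousOn_univ.1 F.lp_jc.continuousOn

theorem isOpen_dC : IsOpen F.dC := by
  have hp := Pr_cont L
  have h1 : Continuous fun p : Pr L × E2 => ((p.1.1.1, p.2) : X × E2) := by fun_prop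
  have h2 : Continuous fun p : Pr L × E2 => ((p.1.1.2, F.lp p.1.1.1 p.1.1.2 p.2) : X × E2) :=
    (by fun_prop : Continuous fun p : Pr L × E2 => p.1.1.2).prodMk F.lp_cont
  exact (F.isOpen_dT.preimage h1).inter (F.isOpen_dT.preimage h2)

/-- the transition map in the disc coordinates -/
theorem tau_dsc {x y : X} (h : L.em x = L.em y) {q : E2} (h1 : (x, q) ∈ F.dT)
    (h2 : (y, F.lp x y q) ∈ F.dT) :
    F.dsc x q ∈ L.dm x y ∧ L.τ x y (F.dsc x q) = F.dsc y (F.lp x y q) := by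
  have h3 : L.e y (F.dsc y (F.lp x y q)) = L.e x (F.dsc x q) := by
    rw [F.e_dsc h1, F.e_dsc h2, F.pt_lp h]
  exact ⟨mem_dm (F.dsc_mem h1) (F.dsc_mem h2) h3, tau_eq (ball_sub (F.dsc_mem h2)) h3⟩

/-- the chain rule of the charts -/
theorem dch_tau {x y : X} (h : L.em x = L.em y) {q : E2} (h1 : (x, q) ∈ F.dT)
    (h2 : (y, F.lp x y q) ∈ F.dT) :
    F.dch y (F.lp x y q) ∘L fderiv ℝ (L.τ x y) (F.dsc x q) =
      (F.lin x y : E2 →L[ℝ] E2) ∘L F.dch x q := by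
  obtain ⟨h3, h4⟩ := F.tau_dsc h h1 h2
  have ht : HasFDerivAt (L.τ x y) (fderiv ℝ (L.τ x y) (F.dsc x q)) (F.dsc x q) :=
    (tau_diff h h3).hasFDerivAt
  have hy : HasFDerivAt (F.cu y) (F.dch y (F.lp x y q)) (L.τ x y (F.dsc x q)) := by
    rw [h4]
    exact (F.cu_diff y (F.dsc_mem h2)).hasFDerivAt
  have hx : HasFDerivAt (F.cu x) (F.dch x q) (F.dsc x q) :=
    (F.cu_diff x (F.dsc_mem h1)).hasFDerivAt
  have e1 := hy.comp (F.dsc x q) ht
  have e2 := (F.hasFDerivAt_lp h (F.cu x (F.dsc x q))).comp (F.dsc x q) hx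
  have e3 : F.cu y ∘ L.τ x y =ᶠ[𝓝 (F.dsc x q)] F.lp x y ∘ F.cu x := by
    filter_upwards [(isOpen_dm L x y).mem_nhds h3] with u hu
    have hu3 : u ∈ closedBall (0 : E2) 3 := ball_sub (mem_dm_iff.1 hu).1
    change F.ch y (L.e y (L.τ x y u)) = F.ch y (F.pt x (F.cu x u))
    rw [e_tau hu, F.pt_cu x hu3]
  exact e1.unique (e2.congr_of_eventuallyEq e3)

variable (T : Tens L)

/-- the error of the cocycle -/
def Rc (x y : X) (q : E2) : E2 →L[ℝ] E2 :=
  F.dch y (F.lp x y q) ∘L T.R x y (F.dsc x q) ∘L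
    ContinuousLinearMap.adjoint (F.dch y (F.lp x y q))

theorem Na_eq (x : X) (q : E2) : F.Na T x q = F.dch x q ∘L T.N x (F.dsc x q) ∘L
    ContinuousLinearMap.adjoint (F.dch x q) := rfl

/-- **the cocycle of the tensor in the affine charts** -/
theorem Na_cocycle {x y : X} (h : L.em x = L.em y) {q : E2} (h1 : (x, q) ∈ F.dT)
    (h2 : (y, F.lp x y q) ∈ F.dT) :
    F.Na T y (F.lp x y q) = (F.lin x y : E2 →L[ℝ] E2) ∘L F.Na T x q ∘L
      ContinuousLinearMap.adjoint (F.lin x y : E2 →L[ℝ] E2) + F.Rc T x y q := by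
  obtain ⟨h3, h4⟩ := F.tau_dsc h h1 h2
  have h5 := F.dch_tau h h1 h2
  have h6 := T.R_eq x y h _ h3
  rw [h4] at h6
  rw [F.Na_eq, F.Na_eq, Rc, h6]
  have h7 : ContinuousLinearMap.adjoint (fderiv ℝ (L.τ x y) (F.dsc x q)) ∘L
      ContinuousLinearMap.adjoint (F.dch y (F.lp x y q)) =
      ContinuousLinearMap.adjoint (F.dch x q) ∘L
        ContinuousLinearMap.adjoint (F.lin x y : E2 →L[ℝ] E2) := by
    rw [← ContinuousLinearMap.adjoint_comp, h5, ContinuousLinearMap.adjoint_comp]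
  generalize F.dch y (F.lp x y q) = D at *
  generalize F.dch x q = D' at *
  generalize fderiv ℝ (L.τ x y) (F.dsc x q) = Dt at *
  generalize (F.lin x y : E2 →L[ℝ] E2) = A at *
  have e1 : D ∘L (Dt ∘L T.N x (F.dsc x q) ∘L ContinuousLinearMap.adjoint Dt +
      T.R x y (F.dsc x q)) ∘L ContinuousLinearMap.adjoint D =
      (D ∘L Dt) ∘L T.N x (F.dsc x q) ∘L
        (ContinuousLinearMap.adjoint Dt ∘L ContinuousLinearMap.adjoint D) +
      D ∘L T.R x y (F.dsc x q) ∘L ContinuousLinearMap.adjoint D := by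
    ext v
    simp
  rw [e1, h5, h7]
  rfl

theorem Rc_jc : JC (fun (z : Pr L) (q : E2) => F.Rc T z.1.1 z.1.2 q) F.dC := by
  have hp := Pr_cont L
  have h1 : JC (fun (z : Pr L) (q : E2) => F.dsc z.1.1 q) F.dC :=
    (F.dsc_jc.pullback (by fun_prop : Continuous fun z : Pr L => z.1.1)).mono F.isOpen_dC
      fun _ h => h.1
  have h2 : JC (fun (z : Pr L) (q : E2) => T.R z.1.1 z.1.2 (F.dsc z.1.1 q)) F.dC :=
    (H751.AffIn.R_jc T).comp' h1 fun p hp => (F.tau_dsc p.1.2 hp.1 hp.2).1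
  have h3 : JC (fun (z : Pr L) (q : E2) => F.dch z.1.2 (F.lp z.1.1 z.1.2 q)) F.dC :=
    (F.dch_jc.pullback (by fun_prop : Continuous fun z : Pr L => z.1.2)).comp'
      (F.lp_jc.mono F.isOpen_dC fun _ _ => mem_univ _) fun p hp => hp.2
  exact h3.clm_comp (h2.clm_comp (h3.clm H751.adjL))

/-- **the error is smooth** -/
theorem Rc_smooth {x y : X} (h : L.em x = L.em y) :
    ContDiffOn ℝ ∞ (F.Rc T x y) {q | (x, q) ∈ F.dT ∧ (y, F.lp x y q) ∈ F.dT} :=
  (F.Rc_jc T).smooth ⟨(x, y), h⟩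

theorem Na_smul' (g : Γ) {x : X} {q : E2} (h : (x, q) ∈ F.dT) :
    F.Na T (g • x) q = F.Na T x q := by
  rw [F.Na_eq, F.Na_eq, F.dch_smul g h, F.dsc_smul g h, T.N_smul g x _ (F.dsc_mem h)]

theorem dC_smul (g : Γ) {x y : X} (h : L.em x = L.em y) {q : E2}
    (h1 : (x, q) ∈ F.dT) (h2 : (y, F.lp x y q) ∈ F.dT) :
    (g • x, q) ∈ F.dT ∧ (g • y, F.lp (g • x) (g • y) q) ∈ F.dT := by
  rw [F.lp_smul g h]
  exact ⟨F.dT_smul g h1, F.dT_smul g h2⟩

/-- the error is invariant under the group -/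
theorem Rc_smul (g : Γ) {x y : X} (h : L.em x = L.em y) {q : E2} (h1 : (x, q) ∈ F.dT)
    (h2 : (y, F.lp x y q) ∈ F.dT) : F.Rc T (g • x) (g • y) q = F.Rc T x y q := by
  have h' : L.em (g • x) = L.em (g • y) := by rw [L.em_smul, L.em_smul, h]
  obtain ⟨h3, h4⟩ := F.dC_smul g h h1 h2
  have e1 := F.Na_cocycle T h h1 h2
  have e2 := F.Na_cocycle T h' h3 h4
  rw [F.lp_smul g h, F.Na_smul' T g h2, F.lin_smul g h, F.Na_smul' T g h1, e1] at e2
  exact (add_left_cancel e2).symm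

/-- the pairs of frames with a common point of the discs are compact modulo the group -/
theorem pairs_compact (c : ℝ) : ∃ S : Set (Pr L × E2), IsCompact S ∧ S ⊆ F.dC ∧
    ∀ z : Pr L, |L.lv z.1.1 - L.lv z.1.2| ≤ c → ∀ q ∈ closedBall (0 : E2) 2,
      F.lp z.1.1 z.1.2 q ∈ closedBall (0 : E2) 2 →
      ∃ g : Γ, ((H751.AffIn.sm g z, q) : Pr L × E2) ∈ S := by
  obtain ⟨K, hK, hcov⟩ := L.cocompact
  obtain ⟨C, hC⟩ := L.near c
  have hp := Pr_cont L
  set K' : Set X := cthickening C K with hK'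
  have hK'c : IsCompact K' := hK.cthickening
  set S : Set (Pr L × E2) := {p | (p.1.1.1 ∈ K ∧ p.1.1.2 ∈ K' ∧ p.2 ∈ closedBall (0 : E2) 2) ∧
    F.lp p.1.1.1 p.1.1.2 p.2 ∈ closedBall (0 : E2) 2} with hS
  have hcl : IsClosed {p : X × X | L.em p.1 = L.em p.2} :=
    isClosed_eq (L.em_cont.comp continuous_fst) (L.em_cont.comp continuous_snd)
  have hc1 : IsCompact ((fun z : Pr L => z.1) ⁻¹' (K ×ˢ K')) :=
    (hcl.isClosedEmbedding_subtypeVal).isCompact_preimage (hK.prod hK'c)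
  refine ⟨S, ?_, ?_, ?_⟩
  · refine (hc1.prod (isCompact_closedBall (0 : E2) 2)).of_isClosed_subset ?_ ?_
    · have k1 : IsClosed {p : Pr L × E2 | p.1.1.1 ∈ K} :=
        hK.isClosed.preimage (by fun_prop : Continuous fun p : Pr L × E2 => p.1.1.1)
      have k2 : IsClosed {p : Pr L × E2 | p.1.1.2 ∈ K'} :=
        hK'c.isClosed.preimage (by fun_prop : Continuous fun p : Pr L × E2 => p.1.1.2)
      have k3 : IsClosed {p : Pr L × E2 | p.2 ∈ closedBall (0 : E2) 2} :=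
        isClosed_closedBall.preimage continuous_snd
      exact (k1.inter (k2.inter k3)).inter (isClosed_closedBall.preimage F.lp_cont)
    · rintro p ⟨⟨h1, h2, h3⟩, -⟩
      exact ⟨⟨h1, h2⟩, h3⟩
  · rintro p ⟨⟨-, -, h3⟩, h4⟩
    exact ⟨F.closedBall_dT _ h3, F.closedBall_dT _ h4⟩
  · intro z hz q hq hq'
    obtain ⟨g, hg⟩ := hcov z.1.1
    refine ⟨g, ⟨⟨hg, ?_, hq⟩, ?_⟩⟩
    · have h1 := F.closedBall_dT z.1.1 hq
      have h2 := F.closedBall_dT z.1.2 hq'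
      have h3 : dist z.1.1 z.1.2 ≤ C := by
        refine hC _ _ z.2 hz ⟨F.pt z.1.1 q, ⟨F.dsc z.1.1 q, ball_sub (F.dsc_mem h1), F.e_dsc h1⟩,
          ⟨F.dsc z.1.2 _, ball_sub (F.dsc_mem h2), ?_⟩⟩
        rw [F.e_dsc h2, F.pt_lp z.2]
      refine mem_cthickening_of_dist_le (g • z.1.2) (g • z.1.1) C K hg ?_
      rw [dist_smul, dist_comm]
      exact h3
    · change F.lp (g • z.1.1) (g • z.1.2) q ∈ _
      rw [F.lp_smul g z.2]
      exact hq'

theorem Rc_iter_smul (g : Γ) {x y : X} (h : L.em x = L.em y) {q : E2} (h1 : (x, q) ∈ F.dT)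
    (h2 : (y, F.lp x y q) ∈ F.dT) (k : ℕ) :
    iteratedFDeriv ℝ k (F.Rc T (g • x) (g • y)) q = iteratedFDeriv ℝ k (F.Rc T x y) q := by
  have h3 : F.Rc T (g • x) (g • y) =ᶠ[𝓝 q] F.Rc T x y := by
    have h5 : IsOpen {v : E2 | (((⟨(x, y), h⟩ : Pr L), v) : Pr L × E2) ∈ F.dC} :=
      isOpen_slice F.isOpen_dC (⟨(x, y), h⟩ : Pr L)
    filter_upwards [h5.mem_nhds (show (((⟨(x, y), h⟩ : Pr L), q) : Pr L × E2) ∈ F.dC from
      ⟨h1, h2⟩)] with v hv using F.Rc_smul T g h hv.1 hv.2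
  exact (h3.iteratedFDeriv ℝ k).eq_of_nhds

theorem Rc_bound_aux {S : Set (Pr L × E2)} (hS : IsCompact S) (hSd : S ⊆ F.dC) (k : ℕ) :
    ∃ C, ∀ p ∈ S, ‖iteratedFDeriv ℝ k (F.Rc T p.1.1.1 p.1.1.2) p.2‖ ≤ C :=
  (F.Rc_jc T).bound hS hSd k

theorem Rc_bound_pr (c : ℝ) (k : ℕ) : ∃ C, ∀ z : Pr L, |L.lv z.1.1 - L.lv z.1.2| ≤ c →
    ∀ q ∈ closedBall (0 : E2) 2, F.lp z.1.1 z.1.2 q ∈ closedBall (0 : E2) 2 →
      ‖iteratedFDeriv ℝ k (F.Rc T z.1.1 z.1.2) q‖ ≤ C := by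
  obtain ⟨S, hS, hSd, hcov⟩ := F.pairs_compact c
  obtain ⟨C, hC⟩ := F.Rc_bound_aux T hS hSd k
  refine ⟨C, fun z hl q hq hq' => ?_⟩
  obtain ⟨g, hg⟩ := hcov z hl q hq hq'
  have h7 := hC (H751.AffIn.sm g z, q) hg
  have h8 : ‖iteratedFDeriv ℝ k (F.Rc T (H751.AffIn.sm g z).1.1 (H751.AffIn.sm g z).1.2) q‖ ≤ C :=
    h7
  have h6 : iteratedFDeriv ℝ k (F.Rc T (H751.AffIn.sm g z).1.1 (H751.AffIn.sm g z).1.2) q =
      iteratedFDeriv ℝ k (F.Rc T z.1.1 z.1.2) q :=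
    F.Rc_iter_smul T g z.2 (F.closedBall_dT _ hq) (F.closedBall_dT _ hq') k
  rw [h6] at h8
  exact h8

/-- **uniform bounds of the error** -/
theorem Rc_bound (c : ℝ) (k : ℕ) : ∃ C, ∀ x y, L.em x = L.em y → |L.lv x - L.lv y| ≤ c →
    ∀ q ∈ closedBall (0 : E2) 2, F.lp x y q ∈ closedBall (0 : E2) 2 →
      ‖iteratedFDeriv ℝ k (F.Rc T x y) q‖ ≤ C := by
  obtain ⟨C, hC⟩ := F.Rc_bound_pr T c k
  exact ⟨C, fun x y h hl q hq hq' => hC ⟨(x, y), h⟩ hl q hq hq'⟩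

/-- the change of the frame is bounded -/
theorem lin_bound (c : ℝ) : ∃ C, ∀ x y, L.em x = L.em y → |L.lv x - L.lv y| ≤ c →
    ∀ q ∈ closedBall (0 : E2) 2, F.lp x y q ∈ closedBall (0 : E2) 2 →
      ‖(F.lin x y : E2 →L[ℝ] E2)‖ ≤ C := by
  obtain ⟨S, hS, hSd, hcov⟩ := F.pairs_compact c
  obtain ⟨C, hC⟩ := (F.lp_jc.fderiv).bound hS (fun _ _ => mem_univ _) 0
  refine ⟨C, fun x y h hl q hq hq' => ?_⟩
  obtain ⟨g, hg⟩ := hcov ⟨(x, y), h⟩ hl q hq hq'
  have h1 := hC _ hg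
  rw [norm_iteratedFDeriv_zero] at h1
  have h' : L.em (g • x) = L.em (g • y) := by rw [L.em_smul, L.em_smul, h]
  have h2 : fderiv ℝ (F.lp (g • x) (g • y)) q = (F.lin x y : E2 →L[ℝ] E2) := by
    rw [(F.hasFDerivAt_lp h' q).fderiv, F.lin_smul g h]
  change ‖fderiv ℝ (F.lp (g • x) (g • y)) q‖ ≤ C at h1
  rwa [h2] at h1

/-! ### the flow -/

/-- **the cocycle for the flow** -/
theorem Na_flow {t : ℝ} {x : X} {q : E2} (h1 : (x, q) ∈ F.dT)
    (h2 : (L.φ t x, F.P t x q) ∈ F.dT) :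
    F.Na T (L.φ t x) (F.P t x q) = (F.P t x : E2 →L[ℝ] E2) ∘L F.Na T x q ∘L
      ContinuousLinearMap.adjoint (F.P t x : E2 →L[ℝ] E2) + F.Rc T x (L.φ t x) q := by
  have h := F.Na_cocycle T (L.em_φ t x).symm h1 (by rwa [F.lp_flow])
  rwa [F.lp_flow, F.lin_flow] at h

theorem Rc_flow_smooth (t : ℝ) (x : X) :
    ContDiffOn ℝ ∞ (F.Rc T x (L.φ t x)) {q | (x, q) ∈ F.dT ∧ (L.φ t x, F.P t x q) ∈ F.dT} := by
  have h := F.Rc_smooth T (L.em_φ t x).symm
  simpa only [F.lp_flow] using h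

theorem Rc_flow_bound (c : ℝ) (k : ℕ) : ∃ C, ∀ x, ∀ t, |t| ≤ c →
    ∀ q ∈ closedBall (0 : E2) 2, F.P t x q ∈ closedBall (0 : E2) 2 →
      ‖iteratedFDeriv ℝ k (F.Rc T x (L.φ t x)) q‖ ≤ C := by
  obtain ⟨C, hC⟩ := F.Rc_bound T c k
  refine ⟨C, fun x t ht q hq hq' => hC x (L.φ t x) (L.em_φ t x).symm ?_ q hq ?_⟩
  · rw [L.lv_φ, sub_add_cancel_left, abs_neg]
    exact ht
  · rwa [F.lp_flow]

end Aff

end Vale.Agent.P207.N4.Y
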